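import Vale.Agent.P207.N4.Dim
import Vale.Agent.P207.N4.H266.Metr

/-!
# P207, line N4, rows R11, R15: the abstract part of `MetU`

* `cl A`: the linear map with matrix `A`.
* `UK L`: the fields of `Metr L` which do not contain the charts of the leaves.
-/

open scoped Manifold ContDiff ENNReal Topology Matrix
open Bundle MeasureTheory Set Filter Metric

set_option maxSynthPendingDepth 3
set_option linter.unusedSectionVars false

noncomputable section

namespace Vale.Agent.P207.N4.H618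

open Vale.Agent.P207.N3 Vale.Agent.P207.N3.H618

variable [Dim]

/-! ### matrices and linear maps of the plane -/

/-- the linear map of the plane with matrix `A` -/
def cl (A : Matrix (Fin Dim.m) (Fin Dim.m) ℝ) : E2 →L[ℝ] E2 := Matrix.toEuclideanCLM (𝕜 := ℝ) A

theorem cl_apply (A : Matrix (Fin Dim.m) (Fin Dim.m) ℝ) (v : E2) (i : Fin Dim.m) :
    cl A v i = ∑ j, A i j * v j := rfl

theorem cl_ofLp (A : Matrix (Fin Dim.m) (Fin Dim.m) ℝ) (v : E2) : (cl A v).ofLp = A *ᵥ v.ofLp := rfl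

theorem cl_mul (A A' : Matrix (Fin Dim.m) (Fin Dim.m) ℝ) : cl (A * A') = cl A ∘L cl A' :=
  map_mul (Matrix.toEuclideanCLM (n := Fin Dim.m) (𝕜 := ℝ)) A A'

theorem cl_add (A A' : Matrix (Fin Dim.m) (Fin Dim.m) ℝ) : cl (A + A') = cl A + cl A' :=
  map_add (Matrix.toEuclideanCLM (n := Fin Dim.m) (𝕜 := ℝ)) A A'

theorem cl_sub (A A' : Matrix (Fin Dim.m) (Fin Dim.m) ℝ) : cl (A - A') = cl A - cl A' :=
  map_sub (Matrix.toEuclideanCLM (n := Fin Dim.m) (𝕜 := ℝ)) A A'

theorem cl_neg (A : Matrix (Fin Dim.m) (Fin Dim.m) ℝ) : cl (-A) = -cl A :=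
  map_neg (Matrix.toEuclideanCLM (n := Fin Dim.m) (𝕜 := ℝ)) A

theorem cl_one : cl 1 = ContinuousLinearMap.id ℝ E2 :=
  map_one (Matrix.toEuclideanCLM (n := Fin Dim.m) (𝕜 := ℝ))

theorem cl_injective : Function.Injective cl :=
  (Matrix.toEuclideanCLM (n := Fin Dim.m) (𝕜 := ℝ)).injective

theorem inner_eq_dot (v w : E2) : inner ℝ v w = v.ofLp ⬝ᵥ w.ofLp := by
  rw [PiLp.inner_apply, dotProduct]
  exact Finset.sum_congr rfl fun i _ => mul_comm _ _

theorem inner_cl (A : Matrix (Fin Dim.m) (Fin Dim.m) ℝ) (v w : E2) :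
    inner ℝ (cl A v) w = w.ofLp ⬝ᵥ (A *ᵥ v.ofLp) := by
  rw [inner_eq_dot, cl_ofLp, dotProduct_comm]

theorem inner_cl_symm {A : Matrix (Fin Dim.m) (Fin Dim.m) ℝ} (h : Aᵀ = A) (v w : E2) :
    inner ℝ (cl A v) w = inner ℝ v (cl A w) := by
  rw [inner_cl, inner_eq_dot, cl_ofLp, Matrix.dotProduct_mulVec, ← Matrix.mulVec_transpose, h,
    dotProduct_comm]

/-- elementary matrices as linear maps -/
def el (i j : Fin Dim.m) : E2 →L[ℝ] E2 := cl (Matrix.single i j 1)

theorem cl_eq_sum (A : Matrix (Fin Dim.m) (Fin Dim.m) ℝ) : cl A = ∑ i, ∑ j, A i j • el i j := by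
  have h1 : ∀ i j, A i j • el i j = cl (Matrix.single i j (A i j)) := fun i j => by
    have h2 := map_smul (Matrix.toEuclideanCLM (n := Fin Dim.m) (𝕜 := ℝ)) (A i j)
      (Matrix.single i j (1 : ℝ))
    rw [Matrix.smul_single, smul_eq_mul, mul_one] at h2
    exact h2.symm
  simp only [h1]
  have h3 : ∀ i j, cl (Matrix.single i j (A i j)) =
      Matrix.toEuclideanCLM (n := Fin Dim.m) (𝕜 := ℝ) (Matrix.single i j (A i j)) := fun _ _ => rfl
  simp only [h3, ← map_sum]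
  rw [← Matrix.matrix_eq_sum_single]
  rfl

theorem continuous_cl {Y : Type*} [TopologicalSpace Y] {A : Y → Matrix (Fin Dim.m) (Fin Dim.m) ℝ}
    (h : ∀ i j, Continuous fun y => A y i j) : Continuous fun y => cl (A y) := by
  simp only [cl_eq_sum]
  exact continuous_finsetSum _ fun i _ => continuous_finsetSum _ fun j _ =>
    (h i j).smul continuous_const

theorem hasDerivAt_cl {A : ℝ → Matrix (Fin Dim.m) (Fin Dim.m) ℝ} {A' : Matrix (Fin Dim.m) (Fin Dim.m) ℝ} {t : ℝ}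
    (h : ∀ i j, HasDerivAt (fun s => A s i j) (A' i j) t) :
    HasDerivAt (fun s => cl (A s)) (cl A') t := by
  simp only [cl_eq_sum]
  exact HasDerivAt.fun_sum fun i _ => HasDerivAt.fun_sum fun j _ => (h i j).smul_const (el i j)

/-! ### the abstract structure -/

section Abs

variable {Γ X B : Type} [Group Γ] [MetricSpace X] [ProperSpace X] [MulAction Γ X]
  [IsIsometricSMul Γ X] [TopologicalSpace B] [CompactSpace B] [T2Space B] [MulAction Γ B]
  [ContinuousConstSMul Γ B]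

/-- The fields of `Metr L` which do not contain the charts of the leaves. -/
structure UK (L : Leaf Γ X B) where
  U : X → E2 →L[ℝ] E2
  U_cont : Continuous U
  U_symm : ∀ x v w, inner ℝ (U x v) w = inner ℝ v (U x w)
  U_pos : ∀ x v, v ≠ 0 → 0 < inner ℝ (U x v) v
  U_smul : ∀ (g : Γ) x, U (g • x) = U x
  U_rot : ∀ a x v, U (L.rot a x) v = a.symm (U x (a v))
  K : X → E2 →L[ℝ] E2
  K_flip : ∀ x, K (L.flip x) = K x
  riccati : ∀ x t, HasDerivAt (fun s => U (L.φ s x))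
    (-(U (L.φ t x) ∘L U (L.φ t x)) - K (L.φ t x)) t

/-- the part of `Metr L` which contains the charts -/
structure JI (L : Leaf Γ X B) (k : UK L) where
  jac : ∀ x t, HasDerivAt (fun s => fderiv ℝ (L.τ (L.φ s x) x) 0)
    (-(fderiv ℝ (L.τ (L.φ t x) x) 0 ∘L k.U (L.φ t x))) t
  I : X → E2 → E2 →L[ℝ] E2
  I_smooth : ∀ x, ContDiffOn ℝ ∞ (I x) (ball 0 3)
  I_cont : ∀ k : ℕ, ContinuousOn (fun p : X × E2 => iteratedFDeriv ℝ k (I p.1) p.2)
    (univ ×ˢ ball 0 3)
  I_eq : ∀ x z, L.em z = L.em x → L.lv z = L.lv x → ∀ u ∈ ball (0 : E2) 3, L.e x u = L.ep z →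
    I x u = fderiv ℝ (L.τ z x) 0 ∘L ContinuousLinearMap.adjoint (fderiv ℝ (L.τ z x) 0)

/-- the horospherical metric -/
def UK.metr {L : Leaf Γ X B} (k : UK L) (m : JI L k) : Metr L where
  U := k.U
  U_cont := k.U_cont
  U_symm := k.U_symm
  U_pos := k.U_pos
  U_smul := k.U_smul
  U_rot := k.U_rot
  K := k.K
  K_flip := k.K_flip
  riccati := k.riccati
  jac := m.jac
  I := m.I
  I_smooth := m.I_smooth
  I_cont := m.I_cont
  I_eq := m.I_eq

end Abs

end Vale.Agent.P207.N4.H618
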