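import Vale.Agent.P207.N4.Dim
import Vale.Agent.P207.N4.H607.In
import Vale.Agent.P207.N4.H618.Conn
import Vale.Agent.P207.N4.H306.MetI

/-!
# P207, line N3, rows R11, R15, R23: the connection, from the frames

`Par D U`: parallel transport of the frames along the geodesic of the frame and along the discs, and
the derivative `(0, U x ·)` of the direction field `W`. `Par.conn` is the connection of `geoIn`;
`exists_metr` is the horospherical metric.
-/

open Set Filter Topology Metric Real
open scoped ContDiff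
open Vale.Agent.P207.N4.H728 Vale.Agent.P207.N3.H728 Vale.Agent.P207.N4.H709 Vale.Agent.P207.N3.H709 Vale.Agent.P207.N4.H76 Vale.Agent.P207.N3.H76
open Vale.Agent.P207.N4.H607 (Rie Of geoIn)

set_option linter.unusedSectionVars false

noncomputable section

namespace Vale.Agent.P207.N4.H618

open Vale.Agent.P207.N3 Vale.Agent.P207.N3.H618

variable [Dim]

/-- differentiation of a family of operators on a Euclidean space -/
theorem hasDerivAt_clm' {k : ℕ} {W : Type} [NormedAddCommGroup W] [NormedSpace ℝ W]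
    {A : ℝ → EuclideanSpace ℝ (Fin k) →L[ℝ] W} {A' : EuclideanSpace ℝ (Fin k) →L[ℝ] W} {t : ℝ}
    (h : ∀ w, HasDerivAt (fun s => A s w) (A' w) t) : HasDerivAt A A' t := by
  have key : ∀ T : EuclideanSpace ℝ (Fin k) →L[ℝ] W,
      T = ∑ i : Fin k, (EuclideanSpace.proj i : EuclideanSpace ℝ (Fin k) →L[ℝ] ℝ).smulRight
      (T (EuclideanSpace.single i 1)) := by
    intro T
    refine ContinuousLinearMap.ext fun v => ?_
    have h1 : v = ∑ i : Fin k, v i • EuclideanSpace.single i (1 : ℝ) := by
      ext l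
      simp [Finset.sum_apply, Pi.single_apply]
    conv_lhs => rw [h1]
    rw [map_sum]
    simp [map_smul]
  have h2 : A = fun s => ∑ i : Fin k, (EuclideanSpace.proj i :
      EuclideanSpace ℝ (Fin k) →L[ℝ] ℝ).smulRight (A s (EuclideanSpace.single i 1)) :=
    funext fun s => key (A s)
  rw [h2, key A']
  refine HasDerivAt.fun_sum fun i _ => ?_
  exact ((ContinuousLinearMap.smulRightL ℝ (EuclideanSpace ℝ (Fin k)) W
    (EuclideanSpace.proj i : EuclideanSpace ℝ (Fin k) →L[ℝ] ℝ)
    ).hasFDerivAt.comp_hasDerivAt t (h (EuclideanSpace.single i 1)))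

variable {Γ X Y : Type} [Group Γ] [MetricSpace X] [ProperSpace X] [MetricSpace Y]
  [ProperSpace Y] [MulAction Γ X] [MulAction Γ Y] [IsIsometricSMul Γ X] [IsIsometricSMul Γ Y]
  {G : Geo Γ X Y} {V : Type} [NormedAddCommGroup V] [NormedSpace ℝ V] {j : Y ≃ₜ V}

/-- **parallel transport of the frames, and the derivative of the direction field** -/
structure Par (D : G.Dir j) (U : X → E2 →L[ℝ] E2) where
  /-- the Christoffel symbols -/
  Gam : V → V →L[ℝ] V →L[ℝ] V
  Gam_symm : ∀ q v w, Gam q v w = Gam q w v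
  /-- the frames are parallel along the geodesic -/
  along : ∀ x c, HasDerivAt (fun t => H607.EX G j (G.φ t x) c)
    (-(Gam (j (G.ft x)) (H607.EX G j x e0) (H607.EX G j x c))) 0
  lf_zero : ∀ x, D.lf x 0 = x
  /-- the frames are parallel along the radii of the disc -/
  across : ∀ x (v : E2) c, HasDerivAt (fun t : ℝ => H607.EX G j (D.lf x (t • v)) c)
    (-(Gam (j (G.ft x)) (H607.EX G j x (pk 0 v)) (H607.EX G j x c))) 0
  /-- the derivative of the direction field -/
  W_der : ∀ x v, HasDerivAt (fun t : ℝ => D.W x (t • v)) (pk 0 (U x v)) 0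

variable {o : Y} [MulAction Γ (Bd o)] [ContinuousConstSMul Γ (Bd o)] [FiniteDimensional ℝ V]
  {D : G.Dir j} {U : X → E2 →L[ℝ] E2}

/-- the field of the directions from `em x` on the disc -/
theorem vel_disc (D : G.Dir j) {r₀ : ℝ} (hr : (G.pre (D.sm3 o)).Small r₀) (x : X) {u : E2}
    (hu : u ∈ ball (0 : E2) D.ε) (hE : DifferentiableAt ℝ (fun c => j (G.E (D.lf x u) c)) 0) :
    (G.slc (D.sm3 o) hr).vel (G.em o x) (j (G.E x (pk 0 u))) =
      H607.EX G j (D.lf x u) (D.W x u) := by
  have h3 := (G.slc (D.sm3 o) hr).hasDerivAt_psi H459.invThm (G.em o x) 0 (j (G.E x (pk 0 u)))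
  rw [(G.slc (D.sm3 o) hr).psi_zero] at h3
  refine h3.unique ?_
  have h1 : HasDerivAt (fun t : ℝ => t • D.W x u) (D.W x u) 0 := by
    simpa using (hasDerivAt_id (0 : ℝ)).smul_const (D.W x u)
  have h2 : HasFDerivAt (fun c => j (G.E (D.lf x u) c)) (H607.EX G j (D.lf x u))
      ((0 : ℝ) • D.W x u) := by
    rw [zero_smul]
    exact hE.hasFDerivAt
  have h4 := h2.comp_hasDerivAt (0 : ℝ) h1
  refine h4.congr_of_eventuallyEq (Eventually.of_forall fun t => ?_)
  change (G.slc (D.sm3 o) hr).psi (G.em o x) t (j (G.E x (pk 0 u))) =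
    j (G.E (D.lf x u) (t • D.W x u))
  rw [G.slc_psi, j.symm_apply_apply, ← D.A_eq o x t hu]
  rfl

namespace Par

variable (P : Par D U)

include P

theorem W_zero (x : X) {r₀ : ℝ} (hr : (G.pre (D.sm3 o)).Small r₀) : D.W x 0 = e0 := by
  have h1 := vel_disc (o := o) D hr x (u := 0) (mem_ball_self D.ε_pos) (D.E_diff _)
  rw [P.lf_zero, Geo.pk_zero_zero, G.E_zero] at h1
  have h2 : (G.slc (D.sm3 o) hr).vel (G.em o x) (j (G.ft x)) = H607.EX G j x e0 := by
    have h3 := (G.slc (D.sm3 o) hr).hasDerivAt_psi H459.invThm (G.em o x) 0 (j (G.ft x))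
    rw [(G.slc (D.sm3 o) hr).psi_zero] at h3
    refine h3.unique ((H607.hasDerivAt_p x (D.E_diff x)).congr_of_eventuallyEq
      (Eventually.of_forall fun t => ?_))
    have h4 := G.psi_em o x t 0
    rw [add_zero, G.p_zero] at h4
    beta_reduce
    rw [G.slc_psi, j.symm_apply_apply, h4]
  exact (D.E_der x).1 (h1.symm.trans h2)

/-- **the connection of the geometry** -/
def conn (R : Rie G j) {r₀ : ℝ} (hr : (G.pre (D.sm3 o)).Small r₀) {L : Leaf Γ X (Bd o)}
    (hL : Of G o r₀ L) : Conn (geoIn D R H459.invThm hr hL) U where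
  Gam := P.Gam
  Gam_symm := P.Gam_symm
  E_deriv x c t := by
    have h1 := P.along (G.φ t x) c
    have h0 : (0 : ℝ) = t + -t := by ring
    rw [h0] at h1
    have h2 := h1.comp_add_const t (-t)
    rw [hL.φ]
    refine h2.congr_of_eventuallyEq (Eventually.of_forall fun s => ?_)
    change H607.EX G j (L.φ s x) c = H607.EX G j (G.φ (s + -t) (G.φ t x)) c
    rw [hL.φ, ← G.φ_add, neg_add_cancel_right]
  core x v := by
    set S := G.slc (D.sm3 o) hr with hS
    have hvel : HasFDerivAt (S.vel (G.em o x)) (fderiv ℝ (S.vel (G.em o x)) (j (G.ft x)))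
        (j (G.ft x)) :=
      ((S.vel_jc H459.invThm).differentiableAt
        (mem_univ ((G.em o x, j (G.ft x)) : Bd o × V))).hasFDerivAt
    -- the disc
    have h1 : HasDerivAt (fun t : ℝ => pk 0 (t • v)) (pk 0 v) 0 := by
      have h2 : (fun t : ℝ => pk 0 (t • v)) = fun t : ℝ => t • pk 0 v := by
        funext t
        rw [← H76.pk_smul, mul_zero]
      rw [h2]
      simpa using (hasDerivAt_id (0 : ℝ)).smul_const (pk 0 v)
    have h3 : HasFDerivAt (fun c => j (G.E x c)) (H607.EX G j x) (pk 0 ((0 : ℝ) • v)) := by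
      rw [zero_smul, Geo.pk_zero_zero]
      exact (D.E_diff x).hasFDerivAt
    have h4 : HasDerivAt (fun t : ℝ => j (G.E x (pk 0 (t • v)))) (H607.EX G j x (pk 0 v)) 0 :=
      HasFDerivAt.comp_hasDerivAt (l := fun c => j (G.E x c)) (f := fun t : ℝ => pk 0 (t • v))
        (0 : ℝ) h3 h1
    have h5 : HasFDerivAt (S.vel (G.em o x)) (fderiv ℝ (S.vel (G.em o x)) (j (G.ft x)))
        (j (G.E x (pk 0 ((0 : ℝ) • v)))) := by
      rw [zero_smul, Geo.pk_zero_zero, G.E_zero]
      exact hvel
    have h6 := h5.comp_hasDerivAt (0 : ℝ) h4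
    -- the frames
    have h7 : HasDerivAt (fun t : ℝ => H607.EX G j (D.lf x (t • v)))
        (-((P.Gam (j (G.ft x)) (H607.EX G j x (pk 0 v))).comp (H607.EX G j x))) 0 :=
      hasDerivAt_clm' fun c => P.across x v c
    have h8 := h7.clm_apply (P.W_der x v)
    have h9 : ((S.vel (G.em o x)) ∘ fun t : ℝ => j (G.E x (pk 0 (t • v)))) =ᶠ[𝓝 (0 : ℝ)]
        fun t : ℝ => H607.EX G j (D.lf x (t • v)) (D.W x (t • v)) := by
      have h10 : ∀ᶠ t : ℝ in 𝓝 0, t • v ∈ ball (0 : E2) D.ε := by
        have h11 : ContinuousAt (fun t : ℝ => t • v) 0 := by fun_prop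
        refine h11.eventually (isOpen_ball.mem_nhds ?_)
        beta_reduce
        rw [zero_smul]
        exact mem_ball_self D.ε_pos
      filter_upwards [h10] with t ht
      exact vel_disc (o := o) D hr x ht (D.E_diff _)
    have h12 := (h8.congr_of_eventuallyEq h9).unique h6
    rw [zero_smul, P.lf_zero, P.W_zero x hr] at h12
    have h13 : fderiv ℝ (S.vel (G.em o x)) (j (G.ft x)) (H607.EX G j x (pk 0 v)) =
        H607.EX G j x (pk 0 (U x v)) -
          P.Gam (j (G.ft x)) (H607.EX G j x (pk 0 v)) (H607.EX G j x e0) := by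
      rw [← h12]
      simp only [_root_.neg_apply, ContinuousLinearMap.coe_comp, Function.comp_apply]
      abel
    rw [hL.em]
    exact h13

end Par

/-! ### the horospherical metric -/

section Metr

variable {Γ X B : Type} [Group Γ] [MetricSpace X] [ProperSpace X] [MulAction Γ X]
  [IsIsometricSMul Γ X] [TopologicalSpace B] [CompactSpace B] [T2Space B] [MulAction Γ B]
  [ContinuousConstSMul Γ B] {L : Leaf Γ X B} {V : Type} [NormedAddCommGroup V] [NormedSpace ℝ V]
  [FiniteDimensional ℝ V] {I : H722.GeoIn L V}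

/-- **the horospherical metric from the connection** -/
def Conn.metr {k : UK L} (C : Conn I k.U) : Metr L := k.metr (H306.ji I k C.jac)

@[simp] theorem Conn.metr_U {k : UK L} (C : Conn I k.U) : C.metr.U = k.U := rfl

@[simp] theorem Conn.metr_K {k : UK L} (C : Conn I k.U) : C.metr.K = k.K := rfl

/-- the second derivative of the Busemann functions -/
theorem Conn.metr_hess {k : UK L} (C : Conn I k.U) : H722.HessIn I C.metr := C.hessIn C.metr rfl

end Metr

end Vale.Agent.P207.N4.H618
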